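import Vale.Agent.H41.PottsFreezing

/-!
# P154: reconstruction at and below the Kesten-Stigum bound for four states, `d = 9`

For the four-state Potts channel on the rooted `9`-ary tree and every `lam` in the interval
`[-1/3, -1/3 + 1/2000]` the quantity `a_n` stays above `1/2` for all `n`, although
`9 * lam ^ 2 ≤ 1`, with strict inequality unless `lam = -1/3`.
-/

namespace Vale.Agent.Results.P154.A_FourStateBelowKS

open Vale.Agent.H41

theorem result :
    ∀ lam : ℝ, -1 / 3 ≤ lam → lam ≤ -1 / 3 + 1 / 2000 →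
      ((9 : ℝ) * lam ^ 2 ≤ 1) ∧ (lam ≠ -1 / 3 → (9 : ℝ) * lam ^ 2 < 1) ∧
        ∀ n : ℕ, (1 / 2 : ℝ) ≤ reconstructionBias 4 9 lam n := by
  intro lam h1 h2
  refine ⟨by nlinarith, ?_, fun n => potts4_tree9_bias lam h1 h2 n⟩
  intro hne
  have h3 : -1 / 3 < lam := lt_of_le_of_ne h1 (Ne.symm hne)
  nlinarith

end Vale.Agent.Results.P154.A_FourStateBelowKS
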