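import Vale.Agent.H41.PottsFreezing

/-!
# P154: four states on the `9`-ary tree, with the limit form of reconstruction

For the four-state Potts channel on the rooted `9`-ary tree and every `lam` in the interval
`[-1/3, -1/3 + 1/2000]`: `9 * lam ^ 2 ≤ 1` (strict unless `lam = -1/3`), `a_n ≥ 1/2` for all `n`,
every limit of `a_n` is at least `1/2`, and `a_n` does not tend to `0`.
-/

namespace Vale.Agent.Results.P154.B_ReconstructionLimitForm

open Vale.Agent.H41

theorem result :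
    ∀ lam : ℝ, -1 / 3 ≤ lam → lam ≤ -1 / 3 + 1 / 2000 →
      ((9 : ℝ) * lam ^ 2 ≤ 1) ∧ (lam ≠ -1 / 3 → (9 : ℝ) * lam ^ 2 < 1) ∧
        (∀ n : ℕ, (1 / 2 : ℝ) ≤ reconstructionBias 4 9 lam n) ∧
        (∀ l : ℝ, Filter.Tendsto (fun n : ℕ => reconstructionBias 4 9 lam n) Filter.atTop
          (nhds l) → (1 / 2 : ℝ) ≤ l) ∧
        ¬ Filter.Tendsto (fun n : ℕ => reconstructionBias 4 9 lam n) Filter.atTop (nhds 0) := by
  intro lam h1 h2
  have hb : ∀ n : ℕ, (1 / 2 : ℝ) ≤ reconstructionBias 4 9 lam n :=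
    fun n => potts4_tree9_bias lam h1 h2 n
  have hl : ∀ l : ℝ, Filter.Tendsto (fun n : ℕ => reconstructionBias 4 9 lam n) Filter.atTop
      (nhds l) → (1 / 2 : ℝ) ≤ l :=
    fun l hlim => ge_of_tendsto' hlim hb
  refine ⟨by nlinarith, ?_, hb, hl, ?_⟩
  · intro hne
    have h3 : -1 / 3 < lam := lt_of_le_of_ne h1 (Ne.symm hne)
    nlinarith
  · intro h0
    have h4 := hl 0 h0
    norm_num at h4

end Vale.Agent.Results.P154.B_ReconstructionLimitForm
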